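import Vale.Agent.P088.R2.H349.DM.Loc5
import Vale.Agent.P088.R2.H238.DM.Spec
import Vale.Agent.P088.R2.H673.DM.L2

/-!
# P088, Dirichlet problem: limits of sequences in a chart
-/

open MeasureTheory Set Filter Topology
open scoped ContDiff

noncomputable section

namespace Vale.Agent.P088.H349.DM

open Vale.Agent.P088 Vale.Agent.P088.EYM Vale.Agent.P088.EYM.ES

set_option linter.unusedSectionVars false

variable {n N : ℕ} [NeZero n]

theorem lop_memLp {L : LD n N} {O : Set (E n)} (hO : IsOpen O) (hOH : O ⊆ Hs n)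
    (hL : L.Ok O) {ψ : E n → Fib N} (hψ : Tst0 O ψ) :
    MemLp (Lop L ψ) 2 (volume.restrict O) := by
  set K := tsupport ψ with hK
  have hKc : IsCompact K := hψ.2.1
  have hKO : K ⊆ O := hψ.2.2
  have hc := lop_cont hO hOH hL hψ
  have hlm : AEStronglyMeasurable (Lop L ψ) (volume.restrict O) :=
    hc.aestronglyMeasurable hO.measurableSet
  rw [memLp_two_iff_integrable_sq_norm hlm]
  have hKi : IntegrableOn (fun y => ‖Lop L ψ y‖ ^ 2) K :=
    ((hc.mono hKO).norm.pow 2).integrableOn_compact hKc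
  refine hKi.of_forall_sdiff_eq_zero hO.measurableSet fun x hx => ?_
  rw [lop_zero hO hOH hx.1 hx.2, norm_zero, zero_pow two_ne_zero]

theorem inner_le_l2 {α : Type*} [MeasurableSpace α] {μ : Measure α} {F : Type*}
    [NormedAddCommGroup F] [InnerProductSpace ℂ F] {f g : α → F} (hf : MemLp f 2 μ)
    (hg : MemLp g 2 μ) : ‖∫ x, (inner ℂ (f x) (g x) : ℂ) ∂μ‖ ≤
      √(∫ x, ‖f x‖ ^ 2 ∂μ) * √(∫ x, ‖g x‖ ^ 2 ∂μ) := by
  have h2 : (2 : ℝ).HolderConjugate 2 := Real.HolderConjugate.two_two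
  have hf' : MemLp f (ENNReal.ofReal 2) μ := by simpa using hf
  have hg' : MemLp g (ENNReal.ofReal 2) μ := by simpa using hg
  have h3 := integral_mul_norm_le_Lp_mul_Lq h2 hf' hg'
  have e1 : ∀ h : α → F, (∫ x, ‖h x‖ ^ (2 : ℝ) ∂μ) ^ (1 / (2 : ℝ)) = √(∫ x, ‖h x‖ ^ 2 ∂μ) := by
    intro h
    rw [Real.sqrt_eq_rpow]
    congr 2
    funext x
    exact_mod_cast Real.rpow_natCast ‖h x‖ 2
  rw [e1 f, e1 g] at h3
  refine (norm_integral_le_integral_norm _).trans (le_trans ?_ h3)
  refine integral_mono_of_nonneg (Eventually.of_forall fun x => norm_nonneg _) ?_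
    (Eventually.of_forall fun x => norm_inner_le_norm _ _)
  exact hf.norm.integrable_mul hg.norm

theorem inner_tendsto {α : Type*} [MeasurableSpace α] {μ : Measure α} {F : Type*}
    [NormedAddCommGroup F] [InnerProductSpace ℂ F] {f : α → F} (hf : MemLp f 2 μ)
    {g : ℕ → α → F} (hg : ∀ k, MemLp (g k) 2 μ) {g0 : α → F} (hg0 : MemLp g0 2 μ)
    (hT : Tendsto (fun k => ∫ x, ‖g k x - g0 x‖ ^ 2 ∂μ) atTop (𝓝 0)) :
    Tendsto (fun k => ∫ x, (inner ℂ (f x) (g k x) : ℂ) ∂μ) atTop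
      (𝓝 (∫ x, (inner ℂ (f x) (g0 x) : ℂ) ∂μ)) := by
  have hi : ∀ {u : α → F}, MemLp u 2 μ → Integrable (fun x => (inner ℂ (f x) (u x) : ℂ)) μ := by
    intro u hu
    refine Integrable.mono' (hf.norm.integrable_mul hu.norm) (hf.1.inner hu.1)
      (Eventually.of_forall fun x => norm_inner_le_norm _ _)
  rw [tendsto_iff_norm_sub_tendsto_zero]
  have h1 : Tendsto (fun k => √(∫ x, ‖f x‖ ^ 2 ∂μ) * √(∫ x, ‖g k x - g0 x‖ ^ 2 ∂μ)) atTop
      (𝓝 0) := by
    have := (hT.sqrt).const_mul (√(∫ x, ‖f x‖ ^ 2 ∂μ))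
    simpa using this
  refine squeeze_zero (fun k => norm_nonneg _) (fun k => ?_) h1
  rw [← integral_sub (hi (hg k)) (hi hg0)]
  have h2 : (fun x => (inner ℂ (f x) (g k x) : ℂ) - inner ℂ (f x) (g0 x)) =
      fun x => (inner ℂ (f x) (g k x - g0 x) : ℂ) := by
    funext x
    rw [inner_sub_right]
  rw [h2]
  exact inner_le_l2 hf ((hg k).sub hg0)

/-- The weak equation of the limit. -/
theorem lim_weak {L : LD n N} {D : Set (E n)} (hD : IsOpen D) (hs : D ⊆ Hs n) (hL : L.Ok D)
    (hh : ∀ x ∈ D, L.h x = 1) {w : ℕ → E n → Fib N} (hw : ∀ k, ContDiffOn ℝ ∞ (w k) D)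
    (hm : ∀ k, MemLp (w k) 2 (volume.restrict D)) {c0 : E n → Fib N}
    (hc : MemLp c0 2 (volume.restrict D))
    (hT : Tendsto (fun k => ∫ x in D, ‖w k x - c0 x‖ ^ 2) atTop (𝓝 0))
    (hE : ∀ ψ : E n → Fib N, Tst0 D ψ → Tendsto (fun k => En L D (w k) ψ) atTop (𝓝 0))
    {ψ : E n → Fib N} (hψ : Tst0 D ψ) :
    ∫ y in D, (inner ℂ (Lop L ψ y) (c0 y) : ℂ) = 0 := by
  have h1 := inner_tendsto (lop_memLp hD hs hL hψ) hm hc hT
  have h2 : Tendsto (fun k => ∫ x in D, (inner ℂ (Lop L ψ x) (w k x) : ℂ)) atTop (𝓝 0) := by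
    have h3 : Tendsto (fun k => -((starRingEnd ℂ) (En L D (w k) ψ))) atTop (𝓝 0) := by
      have := ((Complex.continuous_conj.tendsto 0).comp (hE ψ hψ)).neg
      simpa [Function.comp_def] using this
    refine h3.congr fun k => ?_
    rw [En_conj hL hD.measurableSet (w k) ψ, Complex.conj_conj, green_open hD hs hL hψ (hw k),
      neg_neg]
    refine setIntegral_congr_fun hD.measurableSet fun x hx => ?_
    simp only [hh x hx]
    rfl
  exact tendsto_nhds_unique h1 h2

/-- Integration by parts against a scalar test function. -/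
theorem ibp {D : Set (E n)} (hD : IsOpen D) (hs : D ⊆ Hs n) {φ : E n → ℝ} (hφ : Tst0 D φ)
    {f : E n → Fib N} (hf : ContDiffOn ℝ ∞ f D) (j : Fin n) :
    ∫ x in D, φ x • pd j f x = - ∫ x in D, (fderiv ℝ φ x (ev j)) • f x := by
  set K := tsupport φ with hK
  have hKc : IsCompact K := hφ.2.1
  have hKD : K ⊆ D := hφ.2.2
  have hφ' : Continuous (fun x => fderiv ℝ φ x (ev j)) :=
    (hφ.1.continuous_fderiv (by simp)).clm_apply continuous_const
  have z1 : ∀ x, x ∉ K → φ x = 0 := fun x hx => image_eq_zero_of_notMem_tsupport hx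
  have z2 : ∀ x, x ∉ K → fderiv ℝ φ x (ev j) = 0 := fun x hx => by
    have h2 : x ∉ tsupport (fderiv ℝ φ) := fun h => hx (tsupport_fderiv_subset ℝ h)
    rw [image_eq_zero_of_notMem_tsupport h2]
    rfl
  have hfc : ContinuousOn f K := hf.continuousOn.mono hKD
  have hfd : ContinuousOn (fun x => fderiv ℝ f x (ev j)) K :=
    ((hf.continuousOn_fderiv_of_isOpen hD (by simp)).mono hKD).clm_apply continuousOn_const
  have key : ∀ {g : E n → Fib N}, ContinuousOn g K → (∀ x, x ∉ K → g x = 0) →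
      Integrable g := fun {g} h1 h2 =>
    (h1.integrableOn_compact hKc).integrable_of_forall_notMem_eq_zero h2
  have hmain := integral_smul_fderiv_eq_neg_fderiv_smul_of_integrable
    (μ := (volume : Measure (E n))) (f := φ) (g := f) (v := ev j)
    (key (hφ'.continuousOn.smul hfc) fun x hx => by rw [z2 x hx, zero_smul])
    (key (hφ.1.continuous.continuousOn.smul hfd) fun x hx => by rw [z1 x hx, zero_smul])
    (key (hφ.1.continuous.continuousOn.smul hfc) fun x hx => by rw [z1 x hx, zero_smul])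
    (fun x _ => hφ.1.differentiable (by simp) x)
    (fun x hx => hf.differentiableOn (by simp) x (hKD hx) |>.differentiableAt
      (hD.mem_nhds (hKD hx)))
  have e1 : ∫ x in D, φ x • pd j f x = ∫ x, φ x • fderiv ℝ f x (ev j) := by
    rw [setIntegral_congr_fun hD.measurableSet
      (fun x hx => by simp only [aWeakStrong_pd hD hs hx j] : EqOn (fun x => φ x • pd j f x)
        (fun x => φ x • fderiv ℝ f x (ev j)) D)]
    refine setIntegral_eq_integral_of_forall_compl_eq_zero fun x hx => ?_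
    rw [z1 x fun h => hx (hKD h), zero_smul]
  have e2 : ∫ x in D, (fderiv ℝ φ x (ev j)) • f x = ∫ x, (fderiv ℝ φ x (ev j)) • f x := by
    refine setIntegral_eq_integral_of_forall_compl_eq_zero fun x hx => ?_
    rw [z2 x fun h => hx (hKD h), zero_smul]
  rw [e1, e2, hmain]

theorem smul_tendsto {α : Type*} [MeasurableSpace α] {μ : Measure α} {F : Type*}
    [NormedAddCommGroup F] [NormedSpace ℝ F] {f : α → ℝ} (hf : MemLp f 2 μ)
    {g : ℕ → α → F} (hg : ∀ k, MemLp (g k) 2 μ) {g0 : α → F} (hg0 : MemLp g0 2 μ)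
    (hT : Tendsto (fun k => ∫ x, ‖g k x - g0 x‖ ^ 2 ∂μ) atTop (𝓝 0)) :
    Tendsto (fun k => ∫ x, f x • g k x ∂μ) atTop (𝓝 (∫ x, f x • g0 x ∂μ)) := by
  have hi : ∀ {u : α → F}, MemLp u 2 μ → Integrable (fun x => f x • u x) μ := by
    intro u hu
    refine Integrable.mono' (hf.norm.integrable_mul hu.norm) (hf.1.smul hu.1)
      (Eventually.of_forall fun x => (norm_smul _ _).le)
  rw [tendsto_iff_norm_sub_tendsto_zero]
  have h1 : Tendsto (fun k => √(∫ x, ‖f x‖ ^ 2 ∂μ) * √(∫ x, ‖g k x - g0 x‖ ^ 2 ∂μ)) atTop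
      (𝓝 0) := by
    have := (hT.sqrt).const_mul (√(∫ x, ‖f x‖ ^ 2 ∂μ))
    simpa using this
  refine squeeze_zero (fun k => norm_nonneg _) (fun k => ?_) h1
  rw [← integral_sub (hi (hg k)) (hi hg0)]
  have h2 : (fun x => f x • g k x - f x • g0 x) = fun x => f x • (g k x - g0 x) := by
    funext x
    rw [smul_sub]
  rw [h2]
  have hu : MemLp (fun x => g k x - g0 x) 2 μ := (hg k).sub hg0
  have h22 : (2 : ℝ).HolderConjugate 2 := Real.HolderConjugate.two_two
  have hf' : MemLp f (ENNReal.ofReal 2) μ := by simpa using hf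
  have hu' : MemLp (fun x => ‖g k x - g0 x‖) (ENNReal.ofReal 2) μ := by simpa using hu.norm
  have h3 := integral_mul_norm_le_Lp_mul_Lq h22 hf' hu'
  have e1 : ∀ h : α → ℝ, (∫ x, h x ^ (2 : ℝ) ∂μ) ^ (1 / (2 : ℝ)) = √(∫ x, h x ^ 2 ∂μ) := by
    intro h
    rw [Real.sqrt_eq_rpow]
    congr 2
    funext x
    exact_mod_cast Real.rpow_natCast (h x) 2
  simp only [norm_norm] at h3
  rw [e1 fun x => ‖f x‖, e1 fun x => ‖g k x - g0 x‖] at h3
  refine (norm_integral_le_integral_norm _).trans (le_trans (le_of_eq ?_) h3)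
  exact integral_congr_ae (Eventually.of_forall fun x => norm_smul _ _)

theorem memLp_tst {D : Set (E n)} {φ : E n → ℝ} (h : Continuous φ) (hc : HasCompactSupport φ) :
    MemLp φ 2 (volume.restrict D) :=
  (h.memLp_of_hasCompactSupport hc).restrict D

/-- The limit of the derivatives is the derivative of the limit. -/
theorem lim_pd {D : Set (E n)} (hD : IsOpen D) (hs : D ⊆ Hs n) {w : ℕ → E n → Fib N}
    (hw : ∀ k, ContDiffOn ℝ ∞ (w k) D) (hm : ∀ k, MemLp (w k) 2 (volume.restrict D))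
    (j : Fin n) (hm' : ∀ k, MemLp (pd j (w k)) 2 (volume.restrict D)) {c0 v : E n → Fib N}
    (hc : MemLp c0 2 (volume.restrict D)) (hv : MemLp v 2 (volume.restrict D))
    (hT : Tendsto (fun k => ∫ x in D, ‖w k x - c0 x‖ ^ 2) atTop (𝓝 0))
    (hT' : Tendsto (fun k => ∫ x in D, ‖pd j (w k) x - v x‖ ^ 2) atTop (𝓝 0))
    {c : E n → Fib N} (hcs : ContDiffOn ℝ ∞ c D) (hae : ∀ᵐ x, x ∈ D → c x = c0 x) :
    ∀ᵐ x, x ∈ D → pd j c x = v x := by
  have hpc : ContinuousOn (pd j c) D := ((SLop_rel hD hs).pd_smooth hcs j).continuousOn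
  have hli : LocallyIntegrableOn (fun x => pd j c x - v x) D := by
    refine (hpc.locallyIntegrableOn hD.measurableSet).sub ?_
    exact locallyIntegrableOn_of_locallyIntegrable_restrict (hv.locallyIntegrable (by norm_num))
  have hvi : LocallyIntegrableOn v D :=
    locallyIntegrableOn_of_locallyIntegrable_restrict (hv.locallyIntegrable (by norm_num))
  have hfin := hD.ae_eq_zero_of_integral_contDiff_smul_eq_zero hli ?_
  · filter_upwards [hfin] with x hx hxD
    exact sub_eq_zero.1 (hx hxD)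
  intro φ hφ hφc hφD
  have hφT : Tst0 D φ := ⟨hφ, hφc, hφD⟩
  have hφ' : Continuous (fun x => fderiv ℝ φ x (ev j)) :=
    (hφ.continuous_fderiv (by simp)).clm_apply continuous_const
  have hφ'c : HasCompactSupport (fun x => fderiv ℝ φ x (ev j)) := hφc.fderiv_apply ℝ _
  have t1 := smul_tendsto (memLp_tst (D := D) hφ.continuous hφc) hm' hv hT'
  have t2 := (smul_tendsto (memLp_tst (D := D) hφ' hφ'c) hm hc hT).neg
  have e1 : ∫ x in D, φ x • v x = - ∫ x in D, (fderiv ℝ φ x (ev j)) • c0 x := by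
    refine tendsto_nhds_unique t1 (t2.congr fun k => ?_)
    exact (ibp hD hs hφT (hw k) j).symm
  have e2 : ∫ x in D, (fderiv ℝ φ x (ev j)) • c0 x = ∫ x in D, (fderiv ℝ φ x (ev j)) • c x := by
    refine setIntegral_congr_ae hD.measurableSet ?_
    filter_upwards [hae] with x hx hxD
    rw [hx hxD]
  have e3 := ibp hD hs hφT hcs j
  have hKi : ∀ {g : E n → Fib N}, LocallyIntegrableOn g D →
      Integrable (fun x => φ x • g x) (volume.restrict D) := by
    intro g hg
    have h1 : IntegrableOn g (tsupport φ) := hg.integrableOn_compact_subset hφD hφc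
    have h2 : IntegrableOn (fun x => φ x • g x) (tsupport φ) := by
      exact h1.continuousOn_smul hφ.continuous.continuousOn hφc
    exact (h2.integrable_of_forall_notMem_eq_zero fun x hx => by
      rw [image_eq_zero_of_notMem_tsupport hx, zero_smul]).restrict
  have e4 : ∫ x, φ x • (pd j c x - v x) = ∫ x in D, φ x • (pd j c x - v x) := by
    refine (setIntegral_eq_integral_of_forall_compl_eq_zero fun x hx => ?_).symm
    rw [image_eq_zero_of_notMem_tsupport fun h => hx (hφD h), zero_smul]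
  rw [e4]
  simp only [smul_sub]
  rw [integral_sub (hKi (hpc.locallyIntegrableOn hD.measurableSet)) (hKi hvi), e1, e2, e3,
    sub_self]

theorem Bo_open' (z : E n) (r : ℝ) : IsOpen (DM.Bo z r) := by
  have h1 : ∀ i : Fin n, Continuous fun x : E n => x i := fun i =>
    (EuclideanSpace.proj i : E n →L[ℝ] ℝ).continuous
  have h2 : DM.Bo z r = (⋂ i : Fin n, {x : E n | |x i - z i| < r}) ∩ {x : E n | 0 < x 0} := by
    ext x
    simp [DM.Bo]
  rw [h2]
  refine (isOpen_iInter_of_finite fun i => ?_).inter (isOpen_lt continuous_const (h1 0))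
  exact isOpen_lt ((h1 i).sub continuous_const).abs continuous_const

theorem rowWEAK : DM.RowWEAK := by
  intro n N _ L z r hL hh w hw hi hC hE
  have hD : IsOpen (DM.Bo z r) := Bo_open' z r
  have hDB : DM.Bo z r ⊆ DM.Bx z r := fun x hx => ⟨hx.1, hx.2.le⟩
  have hs : DM.Bo z r ⊆ Hs n := fun x hx => hx.2.le
  set D : Set (E n) := DM.Bo z r with hDdef
  have hR : RelOpen D := SLop_rel hD hs
  have hLD : L.Ok D := CPoinc_okmono hL hDB
  have hhD : ∀ x ∈ D, L.h x = 1 := fun x hx => hh x (hDB hx)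
  have hwD : ∀ k, ContDiffOn ℝ ∞ (w k) D := fun k => (hw k).mono hDB
  have hm1 : ∀ k, AEStronglyMeasurable (w k) (volume.restrict D) := fun k =>
    (hwD k).continuousOn.aestronglyMeasurable hD.measurableSet
  have hm2 : ∀ k j, AEStronglyMeasurable (pd j (w k)) (volume.restrict D) := fun k j =>
    (hR.pd_smooth (hwD k) j).continuousOn.aestronglyMeasurable hD.measurableSet
  have hm : ∀ k, MemLp (w k) 2 (volume.restrict D) := by
    intro k
    rw [memLp_two_iff_integrable_sq_norm (hm1 k)]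
    refine Integrable.mono' (hi k) ((hm1 k).norm.pow 2) (Eventually.of_forall fun x => ?_)
    rw [Real.norm_of_nonneg (by positivity)]
    exact le_add_of_nonneg_right (Finset.sum_nonneg fun j _ => by positivity)
  have hm' : ∀ k j, MemLp (pd j (w k)) 2 (volume.restrict D) := by
    intro k j
    rw [memLp_two_iff_integrable_sq_norm (hm2 k j)]
    refine Integrable.mono' (hi k) ((hm2 k j).norm.pow 2) (Eventually.of_forall fun x => ?_)
    rw [Real.norm_of_nonneg (by positivity)]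
    refine le_add_of_nonneg_of_le (by positivity) ?_
    exact Finset.single_le_sum (f := fun j => ‖pd j (w k) x‖ ^ 2) (fun i _ => by positivity)
      (Finset.mem_univ j)
  have key : ∀ (f : E n → Fib N) (g : Fin n → E n → Fib N), MemLp f 2 (volume.restrict D) →
      (∀ j, MemLp (g j) 2 (volume.restrict D)) →
      ∫ x in D, (‖f x‖ ^ 2 + ∑ j, ‖g j x‖ ^ 2) =
        (∫ x in D, ‖f x‖ ^ 2) + ∑ j, ∫ x in D, ‖g j x‖ ^ 2 := by
    intro f g hf hg
    rw [integral_add ((memLp_two_iff_integrable_sq_norm hf.1).1 hf)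
      (integrable_finsetSum _ fun j _ => (memLp_two_iff_integrable_sq_norm (hg j).1).1 (hg j)),
      integral_finsetSum _ fun j _ => (memLp_two_iff_integrable_sq_norm (hg j).1).1 (hg j)]
  have hH : ∀ k l, H1 D (fun x => w k x - w l x) =
      (∫ x in D, ‖w k x - w l x‖ ^ 2) +
        ∑ j, ∫ x in D, ‖pd j (w k) x - pd j (w l) x‖ ^ 2 := by
    intro k l
    rw [← key (fun x => w k x - w l x) (fun j x => pd j (w k) x - pd j (w l) x)
      ((hm k).sub (hm l)) fun j => (hm' k j).sub (hm' l j)]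
    unfold H1
    refine setIntegral_congr_fun hD.measurableSet fun x hx => ?_
    simp only [hR.pd_sub (hwD k) (hwD l) hx]
  have hnn : ∀ f : E n → Fib N, 0 ≤ ∫ x in D, ‖f x‖ ^ 2 := fun f =>
    integral_nonneg fun x => by positivity
  have hC0 : ∀ ε : ℝ, 0 < ε → ∃ K : ℕ, ∀ k ≥ K, ∀ l ≥ K,
      ∫ x in D, ‖w k x - w l x‖ ^ 2 ≤ ε := by
    intro ε hε
    obtain ⟨K, hK⟩ := hC ε hε
    refine ⟨K, fun k hk l hl => ?_⟩
    have h1 := hK k hk l hl
    rw [hH k l] at h1
    refine le_trans (le_add_of_nonneg_right (Finset.sum_nonneg fun j _ => ?_)) h1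
    exact hnn fun x => pd j (w k) x - pd j (w l) x
  have hCj : ∀ j, ∀ ε : ℝ, 0 < ε → ∃ K : ℕ, ∀ k ≥ K, ∀ l ≥ K,
      ∫ x in D, ‖pd j (w k) x - pd j (w l) x‖ ^ 2 ≤ ε := by
    intro j ε hε
    obtain ⟨K, hK⟩ := hC ε hε
    refine ⟨K, fun k hk l hl => ?_⟩
    have h1 := hK k hk l hl
    rw [hH k l] at h1
    refine le_trans (le_add_of_nonneg_of_le (hnn fun x => w k x - w l x) ?_) h1
    exact Finset.single_le_sum (f := fun j => ∫ x in D, ‖pd j (w k) x - pd j (w l) x‖ ^ 2)
      (fun i _ => hnn fun x => pd i (w k) x - pd i (w l) x) (Finset.mem_univ j)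
  obtain ⟨c0, hc0, hT⟩ := DM.H673.exists_lim w hm hC0
  choose v hv hTv using fun j => DM.H673.exists_lim (fun k => pd j (w k)) (fun k => hm' k j)
    (hCj j)
  obtain ⟨c, hc, hae, hLop⟩ := reg_loc hD hs hLD hhD hc0.1
    (fun K _ hKD => ((memLp_two_iff_integrable_sq_norm hc0.1).1 hc0).mono_measure
      (Measure.restrict_mono hKD le_rfl))
    (fun ψ hψ => lim_weak hD hs hLD hhD hwD hm hc0 hT hE hψ)
  have hpd : ∀ j, ∀ᵐ x, x ∈ D → pd j c x = v j x := fun j =>
    lim_pd hD hs hwD hm j (fun k => hm' k j) hc0 (hv j) hT (hTv j) hc hae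
  have hcm : MemLp c 2 (volume.restrict D) := by
    refine hc0.ae_eq ?_
    rw [EventuallyEq, ae_restrict_iff' hD.measurableSet]
    filter_upwards [hae] with x hx hxD
    exact (hx hxD).symm
  have hpm : ∀ j, MemLp (pd j c) 2 (volume.restrict D) := fun j => by
    refine (hv j).ae_eq ?_
    rw [EventuallyEq, ae_restrict_iff' hD.measurableSet]
    filter_upwards [hpd j] with x hx hxD
    exact (hx hxD).symm
  refine ⟨c, hc, hLop, ?_, ?_⟩
  · exact ((memLp_two_iff_integrable_sq_norm hcm.1).1 hcm).add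
      (integrable_finsetSum _ fun j _ => (memLp_two_iff_integrable_sq_norm (hpm j).1).1 (hpm j))
  · have h1 : ∀ k, H1 D (fun x => w k x - c x) =
        (∫ x in D, ‖w k x - c0 x‖ ^ 2) + ∑ j, ∫ x in D, ‖pd j (w k) x - v j x‖ ^ 2 := by
      intro k
      rw [← key (fun x => w k x - c0 x) (fun j x => pd j (w k) x - v j x)
        ((hm k).sub hc0) fun j => (hm' k j).sub (hv j)]
      unfold H1
      refine setIntegral_congr_ae hD.measurableSet ?_
      have hall : ∀ᵐ x, ∀ j, x ∈ D → pd j c x = v j x := ae_all_iff.2 hpd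
      filter_upwards [hae, hall] with x hx hx' hxD
      simp only [hR.pd_sub (hwD k) hc hxD, hx hxD, hx' _ hxD]
    have h2 : Tendsto (fun k => (∫ x in D, ‖w k x - c0 x‖ ^ 2) +
        ∑ j, ∫ x in D, ‖pd j (w k) x - v j x‖ ^ 2) atTop (𝓝 (0 + ∑ j : Fin n, (0 : ℝ))) :=
      hT.add (tendsto_finsetSum _ fun j _ => hTv j)
    simp only [Finset.sum_const_zero, add_zero] at h2
    exact h2.congr fun k => (h1 k).symm

end Vale.Agent.P088.H349.DM
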