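import Vale.Agent.P088.Bdl.B12
import Vale.Agent.P088.R2.H349.Hyp

/-!
# P088, Dirichlet problem: real components of sections and of the operator
-/

open MeasureTheory Set Filter Topology
open scoped ContDiff

noncomputable section

namespace Vale.Agent.P088.H349.DM

open Vale.Agent.P088 Vale.Agent.P088.EYM Vale.Agent.P088.EYM.ES

variable {n N : ℕ}

/-- The real components of `ℂ^N`. -/
abbrev Ix (N : ℕ) : Type := Fin N × Bool

/-- The component `q` as a real linear map. -/
def cmp (q : Ix N) : Fib N →L[ℝ] ℝ :=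
  (if q.2 then Complex.imCLM else Complex.reCLM).comp
    ((EuclideanSpace.proj (𝕜 := ℂ) q.1 : Fib N →L[ℂ] ℂ).restrictScalars ℝ)

/-- The real basis. -/
def bs (q : Ix N) : Fib N := EuclideanSpace.single q.1 (if q.2 then Complex.I else 1)

theorem cmp_false (a : Fin N) (v : Fib N) : cmp (a, false) v = (v a).re := by
  simp [cmp]

theorem cmp_true (a : Fin N) (v : Fib N) : cmp (a, true) v = (v a).im := by
  simp [cmp]

theorem cmp_bs (p q : Ix N) : cmp q (bs p) = if p = q then 1 else 0 := by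
  obtain ⟨a, s⟩ := p
  obtain ⟨b, t⟩ := q
  have h : ∀ c : ℂ, (EuclideanSpace.single a c : Fib N) b = if a = b then c else 0 := by
    intro c
    by_cases hab : a = b
    · subst hab; simp
    · have hba : b ≠ a := fun h => hab h.symm
      simp [hab, hba]
  cases t
  · rw [cmp_false]
    cases s <;> simp only [bs, h] <;> by_cases hab : a = b <;> simp [hab]
  · rw [cmp_true]
    cases s <;> simp only [bs, h] <;> by_cases hab : a = b <;> simp [hab]

theorem sum_cmp (v : Fib N) : ∑ q, cmp q v • bs q = v := by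
  rw [Fintype.sum_prod_type]
  simp only [Fintype.sum_bool, cmp_false, cmp_true]
  ext b
  have h : ∀ (a : Fin N) (c : ℂ), (EuclideanSpace.single a c : Fib N) b =
      if a = b then c else 0 := by
    intro a c
    by_cases hab : a = b
    · subst hab; simp
    · have hba : b ≠ a := fun h => hab h.symm
      simp [hab, hba]
  rw [WithLp.ofLp_sum, Finset.sum_apply]
  simp only [PiLp.add_apply, PiLp.smul_apply, bs, h, if_true, Bool.false_eq_true, if_false,
    smul_ite, smul_zero]
  simp only [Finset.sum_add_distrib, Finset.sum_ite_eq', Finset.mem_univ, if_true]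
  apply Complex.ext <;> simp

theorem re_inner (v w : Fib N) : (inner ℂ v w : ℂ).re = ∑ q, cmp q v * cmp q w := by
  rw [CPoinc_inner, Fintype.sum_prod_type]
  refine Finset.sum_congr rfl fun a _ => ?_
  rw [Fintype.sum_bool, cmp_false, cmp_true, cmp_false, cmp_true]
  ring

/-- The section with real components `φ`. -/
def sec (φ : Ix N → E n → ℝ) (y : E n) : Fib N := ∑ q, φ q y • bs q

theorem cmp_sec (φ : Ix N → E n → ℝ) (q : Ix N) (y : E n) : cmp q (sec φ y) = φ q y := by
  unfold sec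
  rw [map_sum, Finset.sum_eq_single q]
  · rw [map_smul, cmp_bs]; simp
  · intro p _ hp
    rw [map_smul, cmp_bs, if_neg hp]; simp
  · intro h; exact absurd (Finset.mem_univ q) h

theorem sec_smooth {φ : Ix N → E n → ℝ} {s : Set (E n)} {k : WithTop ℕ∞}
    (h : ∀ q, ContDiffOn ℝ k (φ q) s) : ContDiffOn ℝ k (sec φ) s :=
  ContDiffOn.sum fun q _ => (h q).smul contDiffOn_const

theorem sec_smooth' {φ : Ix N → E n → ℝ} {k : WithTop ℕ∞}
    (h : ∀ q, ContDiff ℝ k (φ q)) : ContDiff ℝ k (sec φ) :=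
  ContDiff.sum fun q _ => (h q).smul contDiff_const

theorem fderiv_sec {φ : Ix N → E n → ℝ} {y : E n} (h : ∀ q, DifferentiableAt ℝ (φ q) y)
    (v : E n) : fderiv ℝ (sec φ) y v = ∑ q, fderiv ℝ (φ q) y v • bs q := by
  have h1 : HasFDerivAt (fun y => ∑ q, φ q y • bs q)
      (∑ q, (fderiv ℝ (φ q) y).smulRight (bs q)) y :=
    HasFDerivAt.fun_sum fun q _ => (h q).hasFDerivAt.smul_const (bs q)
  have h2 : fderiv ℝ (sec φ) y = ∑ q, (fderiv ℝ (φ q) y).smulRight (bs q) := h1.fderiv
  rw [h2, _root_.sum_apply]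
  rfl

theorem fderiv2_sec {φ : Ix N → E n → ℝ} (h : ∀ q, ContDiff ℝ ∞ (φ q)) (y v w : E n) :
    fderiv ℝ (fun y => fderiv ℝ (sec φ) y v) y w =
      ∑ q, fderiv ℝ (fun y => fderiv ℝ (φ q) y v) y w • bs q := by
  have e : (fun y => fderiv ℝ (sec φ) y v) = sec (fun q y => fderiv ℝ (φ q) y v) := by
    funext y
    exact fderiv_sec (fun q => (h q).differentiable (by simp) y) v
  rw [e]
  refine fderiv_sec (fun q => ?_) w
  have h2 : ContDiff ℝ ∞ (fun y => fderiv ℝ (φ q) y v) :=
    ((h q).fderiv_right (m := ∞) (by simp)).clm_apply contDiff_const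
  exact h2.differentiable (by simp) y

/-- The standard basis of `E n`. -/
def bE (n : ℕ) : Module.Basis (Fin n) ℝ (E n) := (EuclideanSpace.basisFun (Fin n) ℝ).toBasis

theorem bE_apply (i : Fin n) : bE n i = ev i := by
  simp [bE]

/-- coefficients of order two -/
def k2 (a : Fin n → Fin n → E n → ℝ) (p q : Ix N) (i j : Fin n) (y : E n) : ℝ :=
  if p = q then a i j y else 0

/-- coefficients of order one -/
def k1 (M : Fin n → E n → EndF N) (p q : Ix N) (i : Fin n) (y : E n) : ℝ :=
  cmp q (M i y (bs p))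

/-- coefficients of order zero -/
def k0 (M0 : E n → EndF N) (p q : Ix N) (y : E n) : ℝ := cmp q (M0 y (bs p))

theorem map_smulR (T : EndF N) (c : ℝ) (v : Fib N) : T (c • v) = c • T v :=
  ContinuousLinearMap.map_smul_of_tower _ _ _

theorem cmp_pop (a : Fin n → Fin n → E n → ℝ) (M : Fin n → E n → EndF N) (M0 : E n → EndF N)
    {φ : Ix N → E n → ℝ} (h : ∀ q, ContDiff ℝ ∞ (φ q)) (q : Ix N) (y : E n) :
    cmp q (Pop a M M0 (sec φ) y) =
      ∑ p, HY.op2 (⇑(bE n)) (k2 a p q) (k1 M p q) (k0 M0 p q) (φ p) y := by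
  have e1 : ∀ i j, cmp q (a i j y • fderiv ℝ (fun y => fderiv ℝ (sec φ) y (ev j)) y (ev i)) =
      ∑ p, k2 a p q i j y * HY.db (⇑(bE n)) i (HY.db (⇑(bE n)) j (φ p)) y := by
    intro i j
    rw [map_smul, fderiv2_sec h, map_sum, smul_eq_mul, Finset.mul_sum]
    refine Finset.sum_congr rfl fun p _ => ?_
    rw [map_smul, cmp_bs, smul_eq_mul]
    unfold k2 HY.db
    rw [bE_apply, bE_apply]
    by_cases hpq : p = q
    · simp [hpq]
    · simp [hpq]
  have e2 : ∀ j, cmp q (M j y (fderiv ℝ (sec φ) y (ev j))) =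
      ∑ p, k1 M p q j y * HY.db (⇑(bE n)) j (φ p) y := by
    intro j
    rw [fderiv_sec (fun q => (h q).differentiable (by simp) y), map_sum, map_sum]
    refine Finset.sum_congr rfl fun p _ => ?_
    rw [map_smulR, map_smul, smul_eq_mul]
    unfold k1 HY.db
    rw [bE_apply, mul_comm]
  have e3 : cmp q (M0 y (sec φ y)) = ∑ p, k0 M0 p q y * φ p y := by
    unfold sec
    rw [map_sum, map_sum]
    refine Finset.sum_congr rfl fun p _ => ?_
    rw [map_smulR, map_smul, smul_eq_mul]
    unfold k0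
    rw [mul_comm]
  unfold Pop
  rw [map_add, map_add, map_sum, map_sum, e3]
  have e4 : ∑ i, cmp q (∑ j, a i j y • fderiv ℝ (fun y => fderiv ℝ (sec φ) y (ev j)) y (ev i)) =
      ∑ p, ∑ i, ∑ j, k2 a p q i j y * HY.db (⇑(bE n)) i (HY.db (⇑(bE n)) j (φ p)) y := by
    rw [Finset.sum_comm]
    refine Finset.sum_congr rfl fun i _ => ?_
    rw [map_sum, Finset.sum_comm]
    exact Finset.sum_congr rfl fun j _ => e1 i j
  rw [e4, Finset.sum_congr rfl fun j _ => e2 j, Finset.sum_comm (s := (Finset.univ : Finset (Fin n)))]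
  rw [← Finset.sum_add_distrib, ← Finset.sum_add_distrib]
  rfl

end Vale.Agent.P088.H349.DM
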