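import Vale.Agent.P088.R2.H349.DM.Cmp

/-!
# P088, Dirichlet problem: interior regularity in a chart
-/

open MeasureTheory Set Filter Topology
open scoped ContDiff

noncomputable section

namespace Vale.Agent.P088.H349.DM

open Vale.Agent.P088 Vale.Agent.P088.EYM Vale.Agent.P088.EYM.ES

set_option linter.unusedSectionVars false

variable {n N : ℕ} [NeZero n]

theorem two_of_infty {F : Type*} [NormedAddCommGroup F] [NormedSpace ℝ F] {ψ : E n → F}
    (h : ContDiff ℝ ∞ ψ) : ContDiff ℝ 2 ψ := by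
  exact_mod_cast contDiff_infty.1 h 2

/-- `Lop` vanishes outside of the support. -/
theorem lop_zero {L : LD n N} {O : Set (E n)} (hO : IsOpen O) (hOH : O ⊆ Hs n)
    {ψ : E n → Fib N} {y : E n} (hy : y ∈ O) (h : y ∉ tsupport ψ) : Lop L ψ y = 0 := by
  have hU : IsOpen (O ∩ (tsupport ψ)ᶜ) := hO.inter (isClosed_tsupport ψ).isOpen_compl
  refine CRungeC_Lop_zero (D := O ∩ (tsupport ψ)ᶜ) (SLop_rel hU (inter_subset_left.trans hOH))
    (fun x hx => image_eq_zero_of_notMem_tsupport hx.2) ⟨hy, h⟩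

theorem lop_cont {L : LD n N} {O : Set (E n)} (hO : IsOpen O) (hOH : O ⊆ Hs n) (hL : L.Ok O)
    {ψ : E n → Fib N} (hψ : Tst0 O ψ) : ContinuousOn (Lop L ψ) O :=
  AGreen_Lop_cont (SLop_rel hO hOH) hL (two_of_infty hψ.1).contDiffOn

/-- The integrand of the weak equation is integrable. -/
theorem weak_integrable {L : LD n N} {O : Set (E n)} (hO : IsOpen O) (hOH : O ⊆ Hs n)
    (hL : L.Ok O) {w : E n → Fib N} (hm : AEStronglyMeasurable w (volume.restrict O))
    (hi : ∀ K, IsCompact K → K ⊆ O → IntegrableOn (fun y => ‖w y‖ ^ 2) K)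
    {ψ : E n → Fib N} (hψ : Tst0 O ψ) :
    IntegrableOn (fun y => (inner ℂ (Lop L ψ y) (w y) : ℂ)) O := by
  set K := tsupport ψ with hK
  have hKc : IsCompact K := hψ.2.1
  have hKO : K ⊆ O := hψ.2.2
  have h0 : ∀ y ∈ O, y ∉ K → (inner ℂ (Lop L ψ y) (w y) : ℂ) = 0 := fun y hy hyK => by
    rw [lop_zero hO hOH hy hyK, inner_zero_left]
  have hc := lop_cont hO hOH hL hψ
  have hlm : AEStronglyMeasurable (Lop L ψ) (volume.restrict O) :=
    hc.aestronglyMeasurable hO.measurableSet
  obtain ⟨C, hC⟩ := hKc.exists_bound_of_continuousOn (hc.mono hKO)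
  have hKi : IntegrableOn (fun y => (inner ℂ (Lop L ψ y) (w y) : ℂ)) K := by
    have hb : IntegrableOn (fun y => |C| * (1 + ‖w y‖ ^ 2)) K := by
      refine Integrable.const_mul ?_ _
      exact (continuousOn_const.integrableOn_compact hKc).add (hi K hKc hKO)
    refine Integrable.mono' hb ?_ ?_
    · exact ((hlm.inner hm).mono_measure (Measure.restrict_mono hKO le_rfl))
    · rw [ae_restrict_iff' hKc.measurableSet]
      refine Eventually.of_forall fun y hy => ?_
      calc ‖(inner ℂ (Lop L ψ y) (w y) : ℂ)‖ ≤ ‖Lop L ψ y‖ * ‖w y‖ := norm_inner_le_norm _ _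
        _ ≤ |C| * (1 + ‖w y‖ ^ 2) := by
          refine mul_le_mul ((hC y hy).trans (le_abs_self C)) ?_ (norm_nonneg _) (abs_nonneg _)
          nlinarith [sq_nonneg (‖w y‖ - 1), norm_nonneg (w y)]
  have h1 : IntegrableOn (fun y => (inner ℂ (Lop L ψ y) (w y) : ℂ)) (K ∪ (O \ K)) := by
    refine hKi.union ?_
    refine (integrableOn_zero (μ := volume) (s := O \ K)).congr_fun (fun y hy => ?_)
      (hO.measurableSet.diff hKc.measurableSet)
    exact (h0 y hy.1 hy.2).symm
  rwa [union_sdiff_cancel hKO] at h1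

/-- A measurable locally square integrable weak solution is smooth. -/
theorem reg_smooth {L : LD n N} {O : Set (E n)} (hO : IsOpen O) (hOH : O ⊆ Hs n) (hL : L.Ok O)
    {w : E n → Fib N} (hm : AEStronglyMeasurable w (volume.restrict O))
    (hi : ∀ K, IsCompact K → K ⊆ O → IntegrableOn (fun y => ‖w y‖ ^ 2) K)
    (hweak : ∀ ψ : E n → Fib N, Tst0 O ψ → ∫ y in O, (inner ℂ (Lop L ψ y) (w y) : ℂ) = 0) :
    ∃ u : E n → Fib N, ContDiffOn ℝ ∞ u O ∧ ∀ᵐ y, y ∈ O → u y = w y := by
  obtain ⟨M, M0, hM, hM0, hLop⟩ := as_lop hO hOH hL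
  have hgg : ∀ i j, ContDiffOn ℝ ∞ (gg L.g i j) O :=
    (SLop_rel hO hOH).gg_smooth hL.g_smooth hL.g_pos
  classical
  set ε : Fin (Fintype.card (Ix N)) ≃ Ix N := (Fintype.equivFin (Ix N)).symm with hε
  have hyp := HY.rowHYP (Fin n) (E n) volume (bE n) (Fintype.card (Ix N)) O hO
    (fun p q => k2 (gg L.g) (ε p) (ε q)) (fun p q => k1 M (ε p) (ε q))
    (fun p q => k0 M0 (ε p) (ε q))
    (fun p q i j => by
      unfold k2
      by_cases h : ε p = ε q
      · simpa [h] using hgg i j
      · simpa [h] using contDiffOn_const)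
    (fun p q i => (cmp (ε q)).contDiff.comp_contDiffOn
      (smooth_eval (hM i) contDiffOn_const))
    (fun p q => (cmp (ε q)).contDiff.comp_contDiffOn
      (smooth_eval hM0 contDiffOn_const))
    (by
      intro z hz ξ hξ
      have h3 : (Matrix.of fun (p q : Fin (Fintype.card (Ix N))) =>
          ∑ i, ∑ j, k2 (gg L.g) (ε p) (ε q) i j z * ξ i * ξ j) =
          (∑ i, ∑ j, gg L.g i j z * ξ i * ξ j) • (1 : Matrix (Fin (Fintype.card (Ix N)))
            (Fin (Fintype.card (Ix N))) ℝ) := by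
        ext p q
        by_cases hpq : p = q
        · subst hpq; simp [k2]
        · have hpq' : ε p ≠ ε q := fun h => hpq (ε.injective h)
          simp [k2, hpq', hpq]
      rw [h3, Matrix.det_smul, Matrix.det_one, mul_one]
      exact pow_ne_zero _ (cRungeB_gg_pos (hL.g_pos z hz) hξ).ne')
    (fun q => O.indicator (fun y => cmp (ε q) (w y))) (fun _ _ => 0)
    (fun q => by
      rw [aestronglyMeasurable_indicator_iff hO.measurableSet]
      exact (cmp (ε q)).continuous.comp_aestronglyMeasurable hm)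
    (fun q k hk hkO => by
      have h1 : IntegrableOn (fun y => cmp (ε q) (w y) ^ 2) k := by
        refine Integrable.mono' ((hi k hk hkO).const_mul (‖cmp (ε q)‖ ^ 2)) ?_ ?_
        · exact ((((cmp (ε q)).continuous.pow 2).comp_aestronglyMeasurable hm).mono_measure
            (Measure.restrict_mono hkO le_rfl))
        · refine Eventually.of_forall fun y => ?_
          rw [Real.norm_eq_abs, abs_pow, ← mul_pow]
          exact pow_le_pow_left₀ (abs_nonneg _) ((cmp (ε q)).le_opNorm (w y)) 2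
      refine h1.congr_fun (fun y hy => ?_) hk.measurableSet
      simp only [indicator_of_mem (hkO hy)])
    (fun _ => contDiffOn_const)
    (by
      intro φ hφ
      set Φ : Ix N → E n → ℝ := fun p => φ (ε.symm p) with hΦ
      have hΦs : ∀ p, ContDiff ℝ ∞ (Φ p) := fun p => (hφ _).1
      have hψ : Tst0 O (sec Φ) := by
        refine ⟨sec_smooth' hΦs, ?_, ?_⟩
        · refine HasCompactSupport.intro (K := ⋃ p, tsupport (Φ p))
            (isCompact_iUnion fun p => (hφ _).2.1) fun y hy => ?_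
          unfold sec
          refine Finset.sum_eq_zero fun p _ => ?_
          rw [image_eq_zero_of_notMem_tsupport (f := Φ p) fun h => hy (mem_iUnion.2 ⟨p, h⟩),
            zero_smul]
        · have hc : IsClosed (⋃ p, tsupport (Φ p)) :=
            (isCompact_iUnion fun p => (hφ (ε.symm p)).2.1).isClosed
          refine (closure_minimal (fun y hy => ?_) hc).trans
            (iUnion_subset fun p => (hφ _).2.2)
          by_contra h
          refine hy ?_
          unfold sec
          refine Finset.sum_eq_zero fun p _ => ?_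
          rw [image_eq_zero_of_notMem_tsupport (f := Φ p) fun h' => h (mem_iUnion.2 ⟨p, h'⟩),
            zero_smul]
      have h1 := hweak _ hψ
      have h2 := weak_integrable hO hOH hL hm hi hψ
      have h3 : ∫ y in O, (inner ℂ (Lop L (sec Φ) y) (w y) : ℂ).re = 0 := by
        have h4 := Complex.reCLM.integral_comp_comm h2
        simp only [Complex.reCLM_apply] at h4
        rw [h4, h1, Complex.zero_re]
      have e0 : ∀ z, z ∉ O → ∀ p q, HY.op2 (⇑(bE n)) (k2 (gg L.g) (ε p) (ε q)) (k1 M (ε p) (ε q))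
          (k0 M0 (ε p) (ε q)) (φ p) z = 0 := by
        intro z hz p q
        have hzs : z ∉ tsupport (φ p) := fun h => hz ((hφ p).2.2 h)
        have hev : φ p =ᶠ[𝓝 z] fun _ => (0 : ℝ) := by
          filter_upwards [(isClosed_tsupport (φ p)).isOpen_compl.mem_nhds hzs] with x hx
          exact image_eq_zero_of_notMem_tsupport hx
        have hdb : ∀ j, HY.db (⇑(bE n)) j (φ p) =ᶠ[𝓝 z] fun _ => (0 : ℝ) := by
          intro j
          filter_upwards [hev.eventuallyEq_nhds] with x hx
          unfold HY.db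
          rw [hx.fderiv_eq]
          simp
        unfold HY.op2
        have e1 : ∀ i j, HY.db (⇑(bE n)) i (HY.db (⇑(bE n)) j (φ p)) z = 0 := by
          intro i j
          have h5 : HY.db (⇑(bE n)) i (HY.db (⇑(bE n)) j (φ p)) z =
            fderiv ℝ (HY.db (⇑(bE n)) j (φ p)) z (bE n i) := rfl
          rw [h5, (hdb j).fderiv_eq]
          simp
        have e2 : ∀ i, HY.db (⇑(bE n)) i (φ p) z = 0 := fun i => (hdb i).self_of_nhds
        have e3 : φ p z = 0 := hev.self_of_nhds
        simp only [e1, e2, e3, mul_zero, Finset.sum_const_zero, add_zero]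
      have e5 : (fun z => ∑ q, O.indicator (fun y => cmp (ε q) (w y)) z *
          ∑ p, HY.op2 (⇑(bE n)) (k2 (gg L.g) (ε p) (ε q)) (k1 M (ε p) (ε q))
          (k0 M0 (ε p) (ε q)) (φ p) z) =
          O.indicator (fun y => (inner ℂ (Lop L (sec Φ) y) (w y) : ℂ).re) := by
        funext z
        by_cases hz : z ∈ O
        · simp only [indicator_of_mem hz]
          rw [hLop (sec Φ) z hz (two_of_infty hψ.1).contDiffAt, re_inner,
            ← ε.sum_comp]
          refine Finset.sum_congr rfl fun q _ => ?_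
          rw [cmp_pop (gg L.g) M M0 hΦs, ← ε.sum_comp, mul_comm]
          simp only [hΦ, Equiv.symm_apply_apply]
        · simp only [indicator_of_notMem hz]
          refine Finset.sum_eq_zero fun q _ => ?_
          rw [zero_mul]
      rw [e5, integral_indicator hO.measurableSet, h3]
      simp)
  obtain ⟨w', hw', hae⟩ := hyp
  refine ⟨fun y => ∑ q, w' q y • bs (ε q), ContDiffOn.sum fun q _ =>
    (hw' q).smul contDiffOn_const, ?_⟩
  have hall : ∀ᵐ y, ∀ q, y ∈ O → w' q y = O.indicator (fun y => cmp (ε q) (w y)) y :=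
    ae_all_iff.2 hae
  filter_upwards [hall] with y hy hyO
  have h6 : ∀ q, w' q y = cmp (ε q) (w y) := fun q => by
    rw [hy q hyO, indicator_of_mem hyO]
  simp only [h6]
  rw [ε.sum_comp (fun q => cmp q (w y) • bs q), sum_cmp]

theorem tst0_smul {O : Set (E n)} {φ : E n → ℝ} (hφ : Tst0 O φ) {h : E n → Fib N}
    (hO : IsOpen O) (hh : ContDiffOn ℝ ∞ h O) : Tst0 O (fun y => φ y • h y) := by
  have h0 : ∀ x, x ∉ tsupport φ → φ x • h x = 0 := fun x hx => by
    rw [image_eq_zero_of_notMem_tsupport hx, zero_smul]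
  have hs : tsupport (fun y => φ y • h y) ⊆ tsupport φ := by
    refine closure_minimal (fun x hx => ?_) (isClosed_tsupport φ)
    by_contra hc
    exact hx (h0 x hc)
  exact ⟨aWeakStrong_ext hO (isClosed_tsupport φ) hφ.2.2 (hφ.1.contDiffOn.smul hh) h0,
    hφ.2.1.of_isClosed_subset (isClosed_tsupport _) hs, hs.trans hφ.2.2⟩

/-- Green's formula in an open set. -/
theorem green_open {L : LD n N} {D : Set (E n)} (hD : IsOpen D) (hs : D ⊆ Hs n) (hL : L.Ok D)
    {ψ d : E n → Fib N} (hψ : Tst0 D ψ) (hd : ContDiffOn ℝ ∞ d D) :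
    En L D ψ d = - ∫ x in D, (inner ℂ (Lop L ψ x) (L.h x (d x)) : ℂ) := by
  have hR : RelOpen D := SLop_rel hD hs
  have hgg := hR.gg_smooth hL.g_smooth hL.g_pos
  have hψD : ContDiffOn ℝ ∞ ψ D := hψ.1.contDiffOn
  have hnab := Jacobi_nab_smooth hR hL hψD
  have hfl : ∀ k, ContDiffOn ℝ ∞ (flux L k ψ) D := fun k =>
    dc_smooth_sum (f := fun l y => gg L.g k l y • nab L l ψ y) _
      fun l _ => (hgg k l).smul (hnab l)
  have hLop : ContDiffOn ℝ ∞ (Lop L ψ) D :=
    dc_smooth_sum (f := fun j y => pd j (flux L j ψ) y + L.B j y (flux L j ψ y)) _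
      fun j _ => (hR.pd_smooth (hfl j) j).add (smooth_eval (hL.B_smooth j) (hfl j))
  set K : Set (E n) := tsupport ψ with hKdef
  have hK : IsCompact K := hψ.2.1
  have hKD : K ⊆ D := hψ.2.2
  have hψ0 : ∀ x, x ∉ K → ψ x = 0 := fun x hx => image_eq_zero_of_notMem_tsupport hx
  have hfl0 : ∀ k, ∀ x ∈ D, x ∉ K → flux L k ψ x = 0 := by
    intro k x hx hxK
    have hU : IsOpen (D ∩ Kᶜ) := hD.inter hK.isClosed.isOpen_compl
    exact (AGreen_zero (L := L) (SLop_rel hU (inter_subset_left.trans hs))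
      (fun y hy => hψ0 y hy.2)).1 k x ⟨hx, hxK⟩
  set u : Fin n → E n → ℂ := fun k y => D.indicator
    (fun y => (inner ℂ (flux L k ψ y) (L.h y (d y)) : ℂ)) y with hu
  have hueq : ∀ k, EqOn (u k) (fun y => (inner ℂ (flux L k ψ y) (L.h y (d y)) : ℂ)) D :=
    fun k y hy => indicator_of_mem hy _
  have huD : ∀ k, ContDiffOn ℝ ∞ (u k) D := fun k =>
    (de_smooth_inner (hfl k) (smooth_eval hL.h_smooth hd)).congr (hueq k)
  have hu0 : ∀ k x, x ∉ K → u k x = 0 := fun k x hx => by
    by_cases hxD : x ∈ D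
    · rw [hueq k hxD]
      simp only [hfl0 k x hxD hx, inner_zero_left]
    · exact indicator_of_notMem hxD _
  have huc : ∀ k, ContDiff ℝ ∞ (u k) := fun k =>
    aWeakStrong_ext hD hK.isClosed hKD (huD k) (hu0 k)
  have hsupp : ∀ k, tsupport (u k) ⊆ K := fun k => by
    refine closure_minimal (fun x hx => ?_) hK.isClosed
    by_contra h
    exact hx (hu0 k x h)
  have hucs : ∀ k, HasCompactSupport (u k) := fun k =>
    hK.of_isClosed_subset (isClosed_tsupport _) (hsupp k)
  have hzero : ∀ k, ∫ x in D, pd k (u k) x = 0 := by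
    intro k
    have h1 : ∫ x in D, pd k (u k) x = ∫ x in D, fderiv ℝ (u k) x (ev k) :=
      setIntegral_congr_fun hD.measurableSet fun x hx => aWeakStrong_pd hD hs hx k
    rw [h1, setIntegral_eq_integral_of_forall_compl_eq_zero, aWeakStrong_div (huc k) (hucs k)]
    intro x hx
    have h2 : x ∉ tsupport (fderiv ℝ (u k)) := fun h =>
      hx (hKD (hsupp k (tsupport_fderiv_subset ℝ h)))
    rw [image_eq_zero_of_notMem_tsupport h2]
    rfl
  have hint1 : ∀ k, IntegrableOn (fun x => pd k (u k) x) D := fun k =>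
    de_integrable hR (hR.pd_smooth (huD k) k) hK hKD
      (dc_pd_supp hK.isClosed (fun x _ hx => hu0 k x hx) k)
  have hLop0 : ∀ x ∈ D, x ∉ K → Lop L ψ x = 0 := fun x hx hxK => lop_zero hD hs hx hxK
  have hint2 : IntegrableOn (fun x => (inner ℂ (Lop L ψ x) (L.h x (d x)) : ℂ)) D := by
    have h1 : IntegrableOn (fun x => (inner ℂ (Lop L ψ x) (L.h x (d x)) : ℂ)) K :=
      ((de_smooth_inner hLop (smooth_eval hL.h_smooth hd)).continuousOn.mono
        hKD).integrableOn_compact hK
    exact h1.of_forall_sdiff_eq_zero hD.measurableSet fun x hx => by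
      rw [hLop0 x hx.1 hx.2, inner_zero_left]
  have hsum : ∫ x in D, ∑ k, pd k (u k) x = 0 := by
    rw [integral_finsetSum _ fun k _ => hint1 k]
    exact Finset.sum_eq_zero fun k _ => hzero k
  have hid : ∀ x ∈ D, ∑ k, pd k (u k) x - inner ℂ (Lop L ψ x) (L.h x (d x)) = ed L ψ d x := by
    intro x hx
    have h1 : ∀ k, pd k (u k) x =
        pd k (fun y => (inner ℂ (flux L k ψ y) (L.h y (d y)) : ℂ)) x := fun k =>
      hR.pd_congr (hueq k) hx k
    rw [Finset.sum_congr rfl fun k _ => h1 k, aWeakStrong_ident hR hL hψD hd hx]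
    ring
  have h1 : En L D ψ d =
      ∫ x in D, (∑ k, pd k (u k) x - inner ℂ (Lop L ψ x) (L.h x (d x))) :=
    (setIntegral_congr_fun hD.measurableSet fun x hx => hid x hx).symm
  rw [h1, integral_sub (integrable_finsetSum _ fun k _ => hint1 k) hint2, hsum, zero_sub]

/-- The energy density is Hermitian. -/
theorem ed_conj {L : LD n N} {D : Set (E n)} (hL : L.Ok D) {x : E n} (hx : x ∈ D)
    (c d : E n → Fib N) : ed L c d x = (starRingEnd ℂ) (ed L d c x) := by
  unfold ed
  rw [map_sum, Finset.sum_comm]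
  refine Finset.sum_congr rfl fun j _ => ?_
  rw [map_sum]
  refine Finset.sum_congr rfl fun k _ => ?_
  rw [map_mul, Complex.conj_ofReal, inner_conj_symm,
    show gg L.g k j x = gg L.g j k x by
      unfold gg; rw [Jacobi_inv_symm (hL.g_pos x hx) k j]]
  congr 1
  rw [← ContinuousLinearMap.adjoint_inner_left, hL.h_adj x hx]

theorem En_conj {L : LD n N} {D : Set (E n)} (hL : L.Ok D) (hD : MeasurableSet D)
    (c d : E n → Fib N) : En L D c d = (starRingEnd ℂ) (En L D d c) := by
  unfold En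
  rw [← integral_conj]
  exact setIntegral_congr_fun hD fun x hx => ed_conj hL hx c d

/-- A locally square integrable weak solution is a smooth solution. -/
theorem reg_loc {L : LD n N} {O : Set (E n)} (hO : IsOpen O) (hOH : O ⊆ Hs n) (hL : L.Ok O)
    (hh : ∀ x ∈ O, L.h x = 1)
    {w : E n → Fib N} (hm : AEStronglyMeasurable w (volume.restrict O))
    (hi : ∀ K, IsCompact K → K ⊆ O → IntegrableOn (fun y => ‖w y‖ ^ 2) K)
    (hweak : ∀ ψ : E n → Fib N, Tst0 O ψ → ∫ y in O, (inner ℂ (Lop L ψ y) (w y) : ℂ) = 0) :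
    ∃ u : E n → Fib N, ContDiffOn ℝ ∞ u O ∧ (∀ᵐ y, y ∈ O → u y = w y) ∧
      ∀ y ∈ O, Lop L u y = 0 := by
  obtain ⟨u, hu, hae⟩ := reg_smooth hO hOH hL hm hi hweak
  refine ⟨u, hu, hae, ?_⟩
  refine aWeakStrong n N L O hO hOH hL u hu fun ψ hψ => ?_
  rw [En_conj hL hO.measurableSet, green_open hO hOH hL hψ hu]
  have h1 : ∫ x in O, (inner ℂ (Lop L ψ x) (L.h x (u x)) : ℂ) =
      ∫ x in O, (inner ℂ (Lop L ψ x) (w x) : ℂ) := by
    refine setIntegral_congr_ae hO.measurableSet ?_
    filter_upwards [hae] with x hx hxO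
    rw [hh x hxO, hx hxO]
    rfl
  rw [h1, hweak ψ hψ, neg_zero, map_zero]

end Vale.Agent.P088.H349.DM
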